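import Vale.Agent.Lib.P356.Main

open Vale.Agent.Lib.P356 in
/-- Strict volume law for gapped ground states on the square lattice: for all `q ≥ 2`, `R`, `J > 0`,
`Δ > 0` there are `0 < c < 1` and `C ≥ 0`, independent of `L`, with
`S(A) ≤ (1 - c) min(|A|, |Aᶜ|) log q + C |∂A|` for every admissible Hamiltonian on `Λ_L` with gap at
least `Δ`, its ground vector `Ω`, and every region `A`. -/
theorem Vale.Agent.Results.P356.StrictVolumeLaw.result (q : ℕ) (hq : 2 ≤ q) (R : ℕ) (J Δ : ℝ)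
    (hJ : 0 < J) (hΔ : 0 < Δ) :
    ∃ c C : ℝ, 0 < c ∧ c < 1 ∧ 0 ≤ C ∧
      ∀ (L : ℕ) (H : Matrix (Site L → Fin q) (Site L → Fin q) ℂ) (E₀ : ℝ)
        (Ω : (Site L → Fin q) → ℂ), Admissible R J H → IsGappedGround H Δ E₀ Ω →
        ∀ A : Finset (Site L),
          vnEntropy (reduced Ω A) ≤ (1 - c) * (min A.card Aᶜ.card : ℕ) * Real.log q
            + C * ((edgeBoundary A).card : ℝ) :=
  strict_volume_law q hq R J Δ hJ hΔ
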